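import Vale.Agent.P159.H950.K2
import Vale.Agent.P159.H170.Final

/-!
T1 of P159: from a lower bound on the axis for large distances to all sites and all charges.
-/

open Filter Topology

namespace Vale.Agent.P159.T1.F

open Vale.Agent.P159 Vale.Agent.P159.H950

/-- power law lower bound on the axis with exponent `κ + ε` for every `ε > 0` -/
def AxisB (b κ : ℝ) : Prop :=
  ∀ ε : ℝ, 0 < ε → ∃ c : ℝ, 0 < c ∧ ∃ r0 : ℕ, ∀ r : ℕ, r0 ≤ r →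
    c * (r : ℝ) ^ (-(κ + ε)) ≤ corrInf b ((r : ℤ), 0)

/-- Messager, Miracle-Sole: off the axis correlations are larger -/
def MMS : Prop :=
  ∀ b : ℝ, 0 ≤ b → ∀ x1 x2 : ℕ,
    corrInf b (((x1 + x2 : ℕ) : ℤ), 0) ≤ corrInf b ((x1 : ℤ), (x2 : ℤ))

lemma corrInf_pos {b : ℝ} (hb : 0 < b) (x : ℤ × ℤ) : 0 < corrInf b x := by
  rw [XY.corrInf_eq hb.le]
  exact XY.C_pos hb x

/-- finitely many values -/
lemma small_all {b κ ε : ℝ} (hb : 0 < b) (n : ℕ) :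
    ∃ c : ℝ, 0 < c ∧ ∀ r < n, c * (r : ℝ) ^ (-(κ + ε)) ≤ corrInf b ((r : ℤ), 0) := by
  induction n with
  | zero => exact ⟨1, one_pos, fun r hr => absurd hr (Nat.not_lt_zero r)⟩
  | succ k ih =>
    obtain ⟨c1, hc1, h1⟩ := ih
    have h0 : (0 : ℝ) ≤ (k : ℝ) ^ (-(κ + ε)) := Real.rpow_nonneg (Nat.cast_nonneg k) _
    refine ⟨min c1 (corrInf b ((k : ℤ), 0) / ((k : ℝ) ^ (-(κ + ε)) + 1)), ?_, ?_⟩
    · exact lt_min hc1 (div_pos (corrInf_pos hb _) (by linarith))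
    · intro r hr
      have hp : (0 : ℝ) ≤ (r : ℝ) ^ (-(κ + ε)) := Real.rpow_nonneg (Nat.cast_nonneg r) _
      rcases Nat.lt_succ_iff_lt_or_eq.1 hr with h3 | h3
      · exact (mul_le_mul_of_nonneg_right (min_le_left _ _) hp).trans (h1 r h3)
      · subst h3
        refine (mul_le_mul_of_nonneg_right (min_le_right _ _) hp).trans ?_
        have hC := corrInf_pos hb ((r : ℤ), 0)
        rw [div_mul_eq_mul_div, div_le_iff₀ (by linarith)]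
        nlinarith

/-- all `r` -/
lemma axis_all {b κ : ℝ} (hb : 0 < b) (h : AxisB b κ) {ε : ℝ} (hε : 0 < ε) :
    ∃ c : ℝ, 0 < c ∧ ∀ r : ℕ, c * (r : ℝ) ^ (-(κ + ε)) ≤ corrInf b ((r : ℤ), 0) := by
  obtain ⟨c, hc, r0, hr⟩ := h ε hε
  obtain ⟨c1, hc1, h1⟩ := small_all (κ := κ) (ε := ε) hb r0
  refine ⟨min c c1, lt_min hc hc1, fun r => ?_⟩
  have hp : (0 : ℝ) ≤ (r : ℝ) ^ (-(κ + ε)) := Real.rpow_nonneg (Nat.cast_nonneg r) _
  by_cases h3 : r0 ≤ r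
  · exact (mul_le_mul_of_nonneg_right (min_le_left _ _) hp).trans (hr r h3)
  · exact (mul_le_mul_of_nonneg_right (min_le_right _ _) hp).trans (h1 r (not_le.1 h3))

/-- `C_b(x1, x2)` depends on `|x1|`, `|x2|` only -/
lemma corrInf_abs {b : ℝ} (hb : 0 ≤ b) (x : ℤ × ℤ) :
    corrInf b x = corrInf b ((x.1.natAbs : ℤ), (x.2.natAbs : ℤ)) := by
  rw [XY.corrInf_eq hb, XY.corrInf_eq hb]
  have h1 : ∀ a c : ℤ, XY.C b (-a, c) = XY.C b (a, c) := by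
    intro a c
    have := XY.C_refl1 hb (a, c)
    simpa [XY.refl1] using this
  have h2 : ∀ a c : ℤ, XY.C b (a, -c) = XY.C b (a, c) := by
    intro a c
    have := XY.C_neg hb (-a, c)
    rw [h1] at this
    simpa using this
  obtain ⟨a, c⟩ := x
  simp only
  rcases Int.natAbs_eq a with ha | ha <;> rcases Int.natAbs_eq c with hc | hc
  · rw [← ha, ← hc]
  · rw [← ha]
    conv_lhs => rw [hc]
    exact h2 _ _
  · rw [← hc]
    conv_lhs => rw [ha]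
    exact h1 _ _
  · conv_lhs => rw [ha, hc]
    rw [h1, h2]

/-- all sites -/
theorem all_sites (mms : MMS) {b κ : ℝ} (hb : 0 < b) (hκ : 0 ≤ κ) (h : AxisB b κ) {ε : ℝ}
    (hε : 0 < ε) : ∃ c : ℝ, 0 < c ∧ ∀ x : ℤ × ℤ, x ≠ 0 →
      c * ((max |x.1| |x.2| : ℤ) : ℝ) ^ (-(κ + ε)) ≤ corrInf b x := by
  obtain ⟨c, hc, hr⟩ := axis_all hb h hε
  refine ⟨c * 2 ^ (-(κ + ε)), by positivity, fun x hx => ?_⟩
  have h1 : 1 ≤ x.1.natAbs + x.2.natAbs := by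
    by_contra hcon
    apply hx
    ext
    · show x.1 = 0
      omega
    · show x.2 = 0
      omega
  have e1 : |x.1| = (x.1.natAbs : ℤ) := (Int.natCast_natAbs x.1).symm
  have e2 : |x.2| = (x.2.natAbs : ℤ) := (Int.natCast_natAbs x.2).symm
  have m1 := le_max_left |x.1| |x.2|
  have m2 := le_max_right |x.1| |x.2|
  have h2 := (hr (x.1.natAbs + x.2.natAbs)).trans (mms b hb.le x.1.natAbs x.2.natAbs)
  rw [← corrInf_abs hb.le] at h2
  refine le_trans ?_ h2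
  have hM : (1 : ℤ) ≤ max |x.1| |x.2| := by omega
  have hle : ((x.1.natAbs + x.2.natAbs : ℕ) : ℝ) ≤ 2 * ((max |x.1| |x.2| : ℤ) : ℝ) := by
    have h3 : ((x.1.natAbs + x.2.natAbs : ℕ) : ℤ) ≤ 2 * max |x.1| |x.2| := by
      push_cast
      omega
    have h4 : (((x.1.natAbs + x.2.natAbs : ℕ) : ℤ) : ℝ) ≤ ((2 * max |x.1| |x.2| : ℤ) : ℝ) :=
      Int.cast_le.2 h3
    rw [Int.cast_natCast] at h4
    refine h4.trans (le_of_eq ?_)
    rw [Int.cast_mul]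
    norm_num
  have hM' : (1 : ℝ) ≤ ((max |x.1| |x.2| : ℤ) : ℝ) := by exact_mod_cast hM
  have hpos : (0 : ℝ) < ((x.1.natAbs + x.2.natAbs : ℕ) : ℝ) := by exact_mod_cast h1
  rw [mul_assoc, ← Real.mul_rpow (by norm_num) (by linarith)]
  refine mul_le_mul_of_nonneg_left ?_ hc.le
  exact Real.rpow_le_rpow_of_nonpos hpos hle (by linarith)

/-- all charges -/
theorem all_charges (mms : MMS) {b κ : ℝ} (hb : 0 < b) (hκ : 0 ≤ κ) (h : AxisB b κ) {q : ℕ}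
    (hq : 1 ≤ q) {ε : ℝ} (hε : 0 < ε) : ∃ c : ℝ, 0 < c ∧ ∀ x : ℤ × ℤ, x ≠ 0 →
      c * ((max |x.1| |x.2| : ℤ) : ℝ) ^ (-((q : ℝ) ^ 2 * κ + ε)) ≤
        chargeInf b ![(q : ℤ), -(q : ℤ)] ![0, x] := by
  have hq' : (0 : ℝ) < (q : ℝ) ^ 2 := by
    have : (0 : ℝ) < q := by exact_mod_cast hq
    positivity
  obtain ⟨c, hc, hx⟩ := all_sites mms hb hκ h (div_pos hε hq')
  refine ⟨c ^ (q ^ 2), by positivity, fun x hx0 => ?_⟩
  refine le_trans ?_ (charge_lower hb.le x q)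
  have h1 := hx x hx0
  have hM : (0 : ℝ) ≤ ((max |x.1| |x.2| : ℤ) : ℝ) := by
    have : (0 : ℤ) ≤ max |x.1| |x.2| := (abs_nonneg _).trans (le_max_left _ _)
    exact_mod_cast this
  have h2 : c ^ (q ^ 2) * ((max |x.1| |x.2| : ℤ) : ℝ) ^ (-((q : ℝ) ^ 2 * κ + ε)) =
      (c * ((max |x.1| |x.2| : ℤ) : ℝ) ^ (-(κ + ε / (q : ℝ) ^ 2))) ^ (q ^ 2) := by
    rw [mul_pow, ← Real.rpow_natCast (_ ^ (-(κ + ε / (q : ℝ) ^ 2))) (q ^ 2), ← Real.rpow_mul hM]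
    congr 2
    push_cast
    field_simp
  rw [h2]
  exact pow_le_pow_left₀ (by positivity) h1 _

end Vale.Agent.P159.T1.F
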