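import Vale.Agent.P159.T1.F.Top
import Vale.Agent.P159.T1.H831.MMS
import Vale.Agent.P159.H950.K4

/-!
T1 of P159: the final statements, from lower bounds on the axis.
-/

open Filter Topology

namespace Vale.Agent.P159.T1.F

open Vale.Agent.P159 Vale.Agent.P159.H950

theorem mms_all : MMS := fun _ hb x1 x2 => H831.mms hb x1 x2

lemma hel_ge {b : ℝ} (hb : bCrit ≤ b) : 2 / Real.pi ≤ helicity b :=
  UJ.helicity_massless (H170.bCrit_pos.trans_le hb)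
    ((H170.mass_iff (H170.bCrit_pos.trans_le hb)).2 hb)

lemma hel_gt {b : ℝ} (hb : bCrit < b) : 2 / Real.pi < helicity b :=
  lt_of_le_of_lt H170.hel_bCrit_ge (H170.final.2.2.1.2.2.1 (Set.mem_Ici.2 le_rfl)
    (Set.mem_Ici.2 hb.le) hb)

lemma hel_pos {b : ℝ} (hb : bCrit ≤ b) : 0 < helicity b :=
  lt_of_lt_of_le (by positivity) (hel_ge hb)

/-- monotonicity in the exponent -/
lemma AxisB.mono {b κ κ' : ℝ} (h : AxisB b κ) (hκ : κ ≤ κ') : AxisB b κ' := by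
  intro ε hε
  obtain ⟨c, hc, r0, hr⟩ := h (ε + (κ' - κ)) (by linarith)
  refine ⟨c, hc, r0, fun r hr0 => ?_⟩
  have := hr r hr0
  rwa [show κ + (ε + (κ' - κ)) = κ' + ε by ring] at this

lemma axisB_of {b κ : ℝ} (h : ∀ ε : ℝ, 0 < ε → ∃ c : ℝ, 0 < c ∧ ∀ r : ℕ, 1 ≤ r →
    c * (r : ℝ) ^ (-(κ + ε)) ≤ corrInf b ((r : ℤ), 0)) : AxisB b κ := fun ε hε => by
  obtain ⟨c, hc, h1⟩ := h ε hε
  exact ⟨c, hc, 1, h1⟩

/-- exponent of the first version -/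
noncomputable def kK (Y : ℝ) : ℝ := 1 / √(2 * Real.pi * Y) - 1 / (2 * Real.pi * Y)

/-- exponent of the second version -/
noncomputable def kR (Y : ℝ) : ℝ := 1 / (2 * √(2 * Real.pi * Y))

/-- the sharp exponent -/
noncomputable def kS (Y : ℝ) : ℝ := 1 / (2 * Real.pi * Y)

lemma sq_aux {Y : ℝ} (hY : 2 / Real.pi ≤ Y) :
    0 < √(2 * Real.pi * Y) ∧ 2 ≤ √(2 * Real.pi * Y) ∧
      √(2 * Real.pi * Y) ^ 2 = 2 * Real.pi * Y := by
  have hpi := Real.pi_pos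
  have h1 : 2 / Real.pi * Real.pi = 2 := by field_simp
  have h2 : (2 : ℝ) ^ 2 ≤ 2 * Real.pi * Y := by nlinarith
  have h3 : (2 : ℝ) ≤ √(2 * Real.pi * Y) := Real.le_sqrt_of_sq_le h2
  exact ⟨by linarith, h3, Real.sq_sqrt (by linarith)⟩

lemma sq_aux' {Y : ℝ} (hY : 2 / Real.pi < Y) : 2 < √(2 * Real.pi * Y) := by
  have hpi := Real.pi_pos
  have h1 : 2 / Real.pi * Real.pi = 2 := by field_simp
  have h2 : (2 : ℝ) ^ 2 < 2 * Real.pi * Y := by nlinarith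
  exact Real.lt_sqrt_of_sq_lt h2

lemma kK_eq {Y : ℝ} (hY : 2 / Real.pi ≤ Y) :
    kK Y = 1 / 4 - (1 / √(2 * Real.pi * Y) - 1 / 2) ^ 2 := by
  obtain ⟨h0, h2, hs⟩ := sq_aux hY
  have e : 1 / (2 * Real.pi * Y) = (1 / √(2 * Real.pi * Y)) ^ 2 := by
    rw [div_pow, one_pow, hs]
  unfold kK
  rw [e]
  ring

lemma kK_le {Y : ℝ} (hY : 2 / Real.pi ≤ Y) : kK Y ≤ 1 / 4 := by
  rw [kK_eq hY]
  nlinarith [sq_nonneg (1 / √(2 * Real.pi * Y) - 1 / 2)]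

lemma kK_lt {Y : ℝ} (hY : 2 / Real.pi < Y) : kK Y < 1 / 4 := by
  rw [kK_eq hY.le]
  have h2 := sq_aux' hY
  have h3 : 1 / √(2 * Real.pi * Y) < 1 / 2 := one_div_lt_one_div_of_lt (by norm_num) h2
  have h4 : 0 < (1 / √(2 * Real.pi * Y) - 1 / 2) ^ 2 := sq_pos_of_neg (by linarith)
  linarith

lemma kK_nonneg {Y : ℝ} (hY : 2 / Real.pi ≤ Y) : 0 ≤ kK Y := by
  obtain ⟨h0, h2, hs⟩ := sq_aux hY
  unfold kK
  rw [sub_nonneg]
  apply one_div_le_one_div_of_le h0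
  nlinarith

lemma kR_le {Y : ℝ} (hY : 2 / Real.pi ≤ Y) : kR Y ≤ 1 / 4 := by
  obtain ⟨h0, h2, hs⟩ := sq_aux hY
  unfold kR
  exact one_div_le_one_div_of_le (by norm_num) (by linarith)

lemma kR_lt {Y : ℝ} (hY : 2 / Real.pi < Y) : kR Y < 1 / 4 := by
  have h2 := sq_aux' hY
  unfold kR
  exact one_div_lt_one_div_of_lt (by norm_num) (by linarith)

lemma kR_nonneg (Y : ℝ) : 0 ≤ kR Y := by
  unfold kR
  positivity

lemma kS_le {Y : ℝ} (hY : 2 / Real.pi ≤ Y) : kS Y ≤ 1 / 4 := by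
  have hpi := Real.pi_pos
  have h1 : 2 / Real.pi * Real.pi = 2 := by field_simp
  unfold kS
  exact one_div_le_one_div_of_le (by norm_num) (by nlinarith)

lemma kS_lt {Y : ℝ} (hY : 2 / Real.pi < Y) : kS Y < 1 / 4 := by
  have hpi := Real.pi_pos
  have h1 : 2 / Real.pi * Real.pi = 2 := by field_simp
  unfold kS
  exact one_div_lt_one_div_of_lt (by norm_num) (by nlinarith)

/-- all sites and all charges, for a family of exponents -/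
theorem family {κ : ℝ → ℝ} (h0 : ∀ b : ℝ, bCrit ≤ b → 0 ≤ κ b)
    (h : ∀ b : ℝ, bCrit ≤ b → AxisB b (κ b)) :
    ∀ b : ℝ, bCrit ≤ b →
      (∀ ε : ℝ, 0 < ε → ∃ c : ℝ, 0 < c ∧ ∀ x : ℤ × ℤ, x ≠ 0 →
        c * ((max |x.1| |x.2| : ℤ) : ℝ) ^ (-(κ b + ε)) ≤ corrInf b x) ∧
      ∀ q : ℕ, 1 ≤ q → ∀ ε : ℝ, 0 < ε → ∃ c : ℝ, 0 < c ∧ ∀ x : ℤ × ℤ, x ≠ 0 →
        c * ((max |x.1| |x.2| : ℤ) : ℝ) ^ (-((q : ℝ) ^ 2 * κ b + ε)) ≤
          chargeInf b ![(q : ℤ), -(q : ℤ)] ![0, x] := fun b hb =>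
  ⟨fun _ hε => all_sites mms_all (H170.bCrit_pos.trans_le hb) (h0 b hb) (h b hb) hε,
    fun _ hq _ hε => all_charges mms_all (H170.bCrit_pos.trans_le hb) (h0 b hb) (h b hb) hq hε⟩

/-- the upper bound for charges -/
lemma charge_up {b : ℝ} (hb : bCrit ≤ b) {q : ℕ} (hq : 1 ≤ q) {η : ℝ}
    (hη : η < (q : ℝ) ^ 2 * kS (helicity b)) : ∃ K : ℝ, ∀ x : ℤ × ℤ, x ≠ 0 →
      chargeInf b ![(q : ℤ), -(q : ℤ)] ![0, x] ≤ K * ((max |x.1| |x.2| : ℤ) : ℝ) ^ (-η) := by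
  refine (charges.2.2.2.2.2.1 b hb q hq).2 η ?_
  rw [kS] at hη
  rwa [mul_one_div] at hη

end Vale.Agent.P159.T1.F
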