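import Vale.Agent.P159.T1.F.Fin

/-!
T1 of P159: from bounds with all exponents to the limit of the logarithms, and the final
statement of the sharp form.
-/

open Filter Topology

namespace Vale.Agent.P159.T1.F

open Vale.Agent.P159 Vale.Agent.P159.H950

/-- sup norm of a site -/
noncomputable def nrm (x : ℤ × ℤ) : ℝ := ((max |x.1| |x.2| : ℤ) : ℝ)

lemma nrm_tendsto : Tendsto nrm cofinite atTop := by
  rw [tendsto_atTop]
  intro M
  rw [eventually_cofinite]
  obtain ⟨n, hn⟩ := exists_nat_gt M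
  refine Set.Finite.subset (Set.finite_Icc ((-(n : ℤ), -(n : ℤ)) : ℤ × ℤ) ((n : ℤ), (n : ℤ))) ?_
  intro x hx
  have h1 : nrm x < M := not_le.1 hx
  have h2 : ((max |x.1| |x.2| : ℤ) : ℝ) < ((n : ℤ) : ℝ) := by
    have : nrm x < n := h1.trans hn
    simpa [nrm] using this
  have h3 : max |x.1| |x.2| < (n : ℤ) := by exact_mod_cast h2
  have h4 := le_max_left |x.1| |x.2|
  have h5 := le_max_right |x.1| |x.2|
  have h6 := abs_le.1 (h4.trans h3.le)
  have h7 := abs_le.1 (h5.trans h3.le)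
  exact ⟨⟨h6.1, h7.1⟩, ⟨h6.2, h7.2⟩⟩

/-- bounds with all exponents give the limit of the logarithms -/
lemma tendsto_log {f : ℤ × ℤ → ℝ} {η : ℝ}
    (hl : ∀ ε : ℝ, 0 < ε → ∃ c : ℝ, 0 < c ∧ ∀ x : ℤ × ℤ, x ≠ 0 → c * nrm x ^ (-(η + ε)) ≤ f x)
    (hu : ∀ ε : ℝ, 0 < ε → ∃ K : ℝ, ∀ x : ℤ × ℤ, x ≠ 0 → f x ≤ K * nrm x ^ (-(η - ε))) :
    Tendsto (fun x => Real.log (f x) / Real.log (nrm x)) cofinite (𝓝 (-η)) := by
  have hL : Tendsto (fun x => Real.log (nrm x)) cofinite atTop :=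
    Real.tendsto_log_atTop.comp nrm_tendsto
  have hdiv : ∀ A : ℝ, Tendsto (fun x => A / Real.log (nrm x)) cofinite (𝓝 0) := fun A =>
    Tendsto.div_atTop tendsto_const_nhds hL
  rw [Metric.tendsto_nhds]
  intro ε hε
  obtain ⟨c, hc, h1⟩ := hl (ε / 2) (by linarith)
  obtain ⟨K, h2⟩ := hu (ε / 2) (by linarith)
  have e1 := (Metric.tendsto_nhds.1 (hdiv (Real.log c))) (ε / 2) (by linarith)
  have e2 := (Metric.tendsto_nhds.1 (hdiv (Real.log K))) (ε / 2) (by linarith)
  have e3 : ∀ᶠ x : ℤ × ℤ in cofinite, x ≠ 0 := by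
    rw [eventually_cofinite]
    refine Set.Finite.subset (Set.finite_singleton (0 : ℤ × ℤ)) ?_
    intro x hx
    simpa using hx
  filter_upwards [e1, e2, e3, hL.eventually_gt_atTop 0, nrm_tendsto.eventually_gt_atTop 0]
    with x g1 g2 g3 g4 g5
  have k1 := h1 x g3
  have k2 := h2 x g3
  have hp1 : 0 < nrm x ^ (-(η + ε / 2)) := Real.rpow_pos_of_pos g5 _
  have hp2 : 0 < nrm x ^ (-(η - ε / 2)) := Real.rpow_pos_of_pos g5 _
  have hf : 0 < f x := lt_of_lt_of_le (mul_pos hc hp1) k1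
  have hK : 0 < K := by
    by_contra hcon
    have : K * nrm x ^ (-(η - ε / 2)) ≤ 0 := mul_nonpos_of_nonpos_of_nonneg (not_lt.1 hcon) hp2.le
    linarith
  have l1 : Real.log c + -(η + ε / 2) * Real.log (nrm x) ≤ Real.log (f x) := by
    have := Real.log_le_log (mul_pos hc hp1) k1
    rwa [Real.log_mul hc.ne' hp1.ne', Real.log_rpow g5] at this
  have l2 : Real.log (f x) ≤ Real.log K + -(η - ε / 2) * Real.log (nrm x) := by
    have := Real.log_le_log hf k2
    rwa [Real.log_mul hK.ne' hp2.ne', Real.log_rpow g5] at this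
  rw [Real.dist_eq, sub_zero, abs_lt] at g1 g2
  have m1 : Real.log c = Real.log c / Real.log (nrm x) * Real.log (nrm x) := by
    field_simp
  have m2 : Real.log K = Real.log K / Real.log (nrm x) * Real.log (nrm x) := by
    field_simp
  rw [Real.dist_eq, abs_lt]
  constructor
  · have : -η - ε < Real.log (f x) / Real.log (nrm x) := by
      rw [lt_div_iff₀ g4]
      nlinarith [g1.1]
    linarith
  · have : Real.log (f x) / Real.log (nrm x) < -η + ε := by
      rw [div_lt_iff₀ g4]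
      nlinarith [g2.2]
    linarith

end Vale.Agent.P159.T1.F
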