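import Vale.Agent.P159.T1.F.Lim

/-!
Correlations of several integer charges at comparable distances: the lower bound with the same
exponent as the known upper bound, from the sharp lower bound of the two-point function.
-/

open Filter Topology

namespace Vale.Agent.P159.T1.F

open Vale.Agent.P159 Vale.Agent.P159.H950

/-- sum of the squares of the charges -/
noncomputable def msq {k : ℕ} (m : Fin k → ℤ) : ℝ := ∑ j, (m j : ℝ) ^ 2

lemma msq_nonneg {k : ℕ} (m : Fin k → ℤ) : 0 ≤ msq m := Finset.sum_nonneg fun _ _ => sq_nonneg _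

lemma msq_par {k : ℕ} (m m' : Fin k → ℤ) : msq (m + m') + msq (m - m') = 2 * msq m + 2 * msq m' := by
  unfold msq
  rw [← Finset.sum_add_distrib, Finset.mul_sum, Finset.mul_sum, ← Finset.sum_add_distrib]
  refine Finset.sum_congr rfl fun j _ => ?_
  simp only [Pi.add_apply, Pi.sub_apply]
  push_cast
  ring

/-- the known upper bound at distances at least `d` -/
lemma multi_up {b : ℝ} (hb : bCrit ≤ b) {k : ℕ} (m : Fin k → ℤ) {ε : ℝ} (hε : 0 < ε) :
    ∃ K : ℝ, 0 < K ∧ ∀ (x : Fin k → ℤ × ℤ) (d : ℕ), 1 ≤ d →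
      (∀ i j, i ≠ j → (d : ℤ) ≤ max |(x i - x j).1| |(x i - x j).2|) →
      chargeInf b m x ≤ K * (d : ℝ) ^ (-(1 / (2 * Real.pi * helicity b) / 2 * msq m - ε)) := by
  have hb0 : 0 < b := H170.bCrit_pos.trans_le hb
  have hY := hel_pos hb
  have hpi := Real.pi_pos
  have hm := msq_nonneg m
  set κ : ℝ := 1 / (2 * Real.pi * helicity b) / 2 - ε / (msq m + 1) with hκ
  have h1 : κ * (4 * Real.pi * helicity b) < 1 := by
    have e1 : 1 / (2 * Real.pi * helicity b) / 2 * (4 * Real.pi * helicity b) = 1 := by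
      field_simp
      norm_num
    have e2 : 0 < ε / (msq m + 1) * (4 * Real.pi * helicity b) := by positivity
    rw [hκ, sub_mul, e1]
    linarith
  obtain ⟨K, hK⟩ := (H873.new.2.2.2.2.1) b κ hb0 h1 k m
  refine ⟨max K 1, lt_max_of_lt_right one_pos, fun x d hd hx => ?_⟩
  obtain ⟨c, hc, -, hc2⟩ := hK x (fun _ => d) (fun _ => hd) hx
  have h2 : chargeInf b m x = c := tendsto_nhds_unique (tendsto_chargeInf hb0.le m x) hc
  have hd' : (1 : ℝ) ≤ d := by exact_mod_cast hd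
  have hd0 : (0 : ℝ) < d := by linarith
  rw [h2]
  refine hc2.trans ?_
  have h3 : ∏ j, (d : ℝ) ^ (-(κ * (m j : ℝ) ^ 2)) = (d : ℝ) ^ (-(κ * msq m)) := by
    rw [← Real.rpow_sum_of_pos hd0]
    congr 1
    unfold msq
    rw [Finset.sum_neg_distrib, Finset.mul_sum]
  have h3' : ∏ j, ((fun _ => d : Fin k → ℕ) j : ℝ) ^ (-(κ * (m j : ℝ) ^ 2)) =
      (d : ℝ) ^ (-(κ * msq m)) := h3
  rw [h3']
  have h4 : (d : ℝ) ^ (-(κ * msq m)) ≤
      (d : ℝ) ^ (-(1 / (2 * Real.pi * helicity b) / 2 * msq m - ε)) := by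
    apply Real.rpow_le_rpow_of_exponent_le hd'
    have h5 : ε / (msq m + 1) * msq m ≤ ε := by
      rw [div_mul_eq_mul_div, div_le_iff₀ (by linarith)]
      nlinarith
    rw [hκ, sub_mul]
    linarith
  have h6 : 0 ≤ (d : ℝ) ^ (-(κ * msq m)) := Real.rpow_nonneg hd0.le _
  calc K * (d : ℝ) ^ (-(κ * msq m)) ≤ max K 1 * (d : ℝ) ^ (-(κ * msq m)) :=
        mul_le_mul_of_nonneg_right (le_max_left _ _) h6
    _ ≤ _ := mul_le_mul_of_nonneg_left h4 (by positivity)

/-- one step: from the charges `m`, `m'` to their sum -/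
lemma multi_step {b : ℝ} (hb : bCrit ≤ b) {k : ℕ} (m m' : Fin k → ℤ) {η : ℝ}
    (hη : η = 1 / (2 * Real.pi * helicity b) / 2) (P : (Fin k → ℤ × ℤ) → ℕ → Prop)
    (hP : ∀ x d, P x d → 1 ≤ d ∧
      ∀ i j, i ≠ j → (d : ℤ) ≤ max |(x i - x j).1| |(x i - x j).2|)
    (h1 : ∀ ε : ℝ, 0 < ε → ∃ c : ℝ, 0 < c ∧ ∀ x d, P x d →
      c * (d : ℝ) ^ (-(η * msq m + ε)) ≤ chargeInf b m x)
    (h2 : ∀ ε : ℝ, 0 < ε → ∃ c : ℝ, 0 < c ∧ ∀ x d, P x d →
      c * (d : ℝ) ^ (-(η * msq m' + ε)) ≤ chargeInf b m' x) :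
    ∀ ε : ℝ, 0 < ε → ∃ c : ℝ, 0 < c ∧ ∀ x d, P x d →
      c * (d : ℝ) ^ (-(η * msq (m + m') + ε)) ≤ chargeInf b (m + m') x := by
  intro ε hε
  have hb0 : 0 < b := H170.bCrit_pos.trans_le hb
  obtain ⟨c1, hc1, g1⟩ := h1 (ε / 5) (by linarith)
  obtain ⟨c2, hc2, g2⟩ := h2 (ε / 5) (by linarith)
  obtain ⟨K, hK, g3⟩ := multi_up hb (m - m') (show (0 : ℝ) < ε / 5 by linarith)
  refine ⟨c1 ^ 2 * c2 ^ 2 / K, by positivity, fun x d hx => ?_⟩
  obtain ⟨hd, hx'⟩ := hP x d hx
  have hd' : (1 : ℝ) ≤ d := by exact_mod_cast hd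
  have hd0 : (0 : ℝ) < d := by linarith
  have k1 := g1 x d hx
  have k2 := g2 x d hx
  have k3 := g3 x d hd hx'
  rw [← hη] at k3
  have k4 := chargeInf_par hb0.le m m' x
  have hE := chargeInf_nonneg hb0.le (m + m') x
  set a := (d : ℝ) ^ (-(η * msq m + ε / 5)) with ha
  set a' := (d : ℝ) ^ (-(η * msq m' + ε / 5)) with ha'
  set u := (d : ℝ) ^ (-(η * msq (m - m') - ε / 5)) with hu
  have ha0 : 0 < a := Real.rpow_pos_of_pos hd0 _
  have ha0' : 0 < a' := Real.rpow_pos_of_pos hd0 _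
  have hu0 : 0 < u := Real.rpow_pos_of_pos hd0 _
  have e1 : a ^ 2 * a' ^ 2 = (d : ℝ) ^ (-(η * msq (m + m') + ε)) * u := by
    rw [ha, ha', hu, ← Real.rpow_natCast _ 2, ← Real.rpow_mul hd0.le, ← Real.rpow_natCast _ 2,
      ← Real.rpow_mul hd0.le, ← Real.rpow_add hd0, ← Real.rpow_add hd0]
    congr 1
    have := msq_par m m'
    have h5 : msq (m - m') = 2 * msq m + 2 * msq m' - msq (m + m') := by linarith
    rw [h5]
    push_cast
    ring
  have e2 : (c1 * a) ^ 2 * (c2 * a') ^ 2 ≤ chargeInf b (m + m') x * (K * u) := by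
    calc (c1 * a) ^ 2 * (c2 * a') ^ 2 ≤ chargeInf b m x ^ 2 * chargeInf b m' x ^ 2 :=
          mul_le_mul (pow_le_pow_left₀ (by positivity) k1 2) (pow_le_pow_left₀ (by positivity) k2 2)
            (by positivity) (sq_nonneg _)
      _ ≤ chargeInf b (m + m') x * chargeInf b (m - m') x := k4
      _ ≤ _ := mul_le_mul_of_nonneg_left k3 hE
  have e3 : (c1 * a) ^ 2 * (c2 * a') ^ 2 =
      c1 ^ 2 * c2 ^ 2 / K * (d : ℝ) ^ (-(η * msq (m + m') + ε)) * (K * u) := by
    rw [mul_pow, mul_pow]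
    calc c1 ^ 2 * a ^ 2 * (c2 ^ 2 * a' ^ 2) = c1 ^ 2 * c2 ^ 2 * (a ^ 2 * a' ^ 2) := by ring
      _ = _ := by
        rw [e1]
        field_simp
  rw [e3] at e2
  exact le_of_mul_le_mul_right e2 (by positivity)

/-- the lower bound for all neutral charges at comparable distances -/
theorem multi_low {b : ℝ} (hb : bCrit ≤ b)
    (h : AxisB b (1 / (2 * Real.pi * helicity b))) {k : ℕ} (m : Fin k → ℤ) (hm : ∑ j, m j = 0)
    {A : ℕ} {ε : ℝ} (hε : 0 < ε) :
    ∃ c : ℝ, 0 < c ∧ ∀ (x : Fin k → ℤ × ℤ) (d : ℕ), 1 ≤ d →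
      (∀ i j, i ≠ j → (d : ℤ) ≤ max |(x i - x j).1| |(x i - x j).2|) →
      (∀ i j, max |(x i - x j).1| |(x i - x j).2| ≤ (A * d : ℤ)) →
      c * (d : ℝ) ^ (-(1 / (2 * Real.pi * helicity b) / 2 * msq m + ε)) ≤ chargeInf b m x := by
  classical
  have hb0 : 0 < b := H170.bCrit_pos.trans_le hb
  have hY := hel_pos hb
  have hpi := Real.pi_pos
  set η : ℝ := 1 / (2 * Real.pi * helicity b) / 2 with hη
  have hη0 : 0 < η := by positivity
  set P : (Fin k → ℤ × ℤ) → ℕ → Prop := fun x d => 1 ≤ d ∧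
    (∀ i j, i ≠ j → (d : ℤ) ≤ max |(x i - x j).1| |(x i - x j).2|) ∧
    (∀ i j, max |(x i - x j).1| |(x i - x j).2| ≤ (A * d : ℤ)) with hPd
  have hP : ∀ x d, P x d → 1 ≤ d ∧
      ∀ i j, i ≠ j → (d : ℤ) ≤ max |(x i - x j).1| |(x i - x j).2| := fun x d hx => ⟨hx.1, hx.2.1⟩
  suffices H : ∀ ε : ℝ, 0 < ε → ∃ c : ℝ, 0 < c ∧ ∀ x d, P x d →
      c * (d : ℝ) ^ (-(η * msq m + ε)) ≤ chargeInf b m x by
    obtain ⟨c, hc, g⟩ := H ε hε
    exact ⟨c, hc, fun x d h1 h2 h3 => g x d ⟨h1, h2, h3⟩⟩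
  rcases Nat.eq_zero_or_pos k with hk | hk
  · subst hk
    intro ε' hε'
    have h0 : m = 0 := funext fun i => i.elim0
    refine ⟨1, one_pos, fun x d hx => ?_⟩
    have hd : (1 : ℝ) ≤ d := by exact_mod_cast hx.1
    rw [h0, chargeInf_zero hb0.le, one_mul]
    apply Real.rpow_le_one_of_one_le_of_nonpos hd
    have := msq_nonneg (0 : Fin 0 → ℤ)
    have := mul_nonneg hη0.le this
    linarith
  set j0 : Fin k := ⟨0, hk⟩ with hj0
  set a : Fin k → Fin k → ℤ := fun j i => m j * (Pi.single j 1 - Pi.single j0 1 : Fin k → ℤ) i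
    with ha
  have hsum : m = ∑ j, a j := by
    funext i
    rw [Finset.sum_apply]
    simp only [ha, Pi.sub_apply, mul_sub, Finset.sum_sub_distrib]
    rw [← Finset.sum_mul, hm, zero_mul, sub_zero, Finset.sum_eq_single i]
    · rw [Pi.single_eq_same, mul_one]
    · intro j _ hj
      rw [Pi.single_eq_of_ne hj.symm, mul_zero]
    · intro h
      exact absurd (Finset.mem_univ i) h
  -- the pairs
  have hpair : ∀ j : Fin k, ∀ ε : ℝ, 0 < ε → ∃ c : ℝ, 0 < c ∧ ∀ x d, P x d →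
      c * (d : ℝ) ^ (-(η * msq (a j) + ε)) ≤ chargeInf b (a j) x := by
    intro j ε' hε'
    by_cases hj : j = j0
    · have h0 : a j = 0 := by
        funext i
        simp only [ha, hj, sub_self, Pi.zero_apply, mul_zero]
      refine ⟨1, one_pos, fun x d hx => ?_⟩
      have hd : (1 : ℝ) ≤ d := by exact_mod_cast hx.1
      rw [h0, chargeInf_zero hb0.le, one_mul]
      apply Real.rpow_le_one_of_one_le_of_nonpos hd
      have := mul_nonneg hη0.le (msq_nonneg (0 : Fin k → ℤ))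
      linarith
    · have hmsq : msq (a j) = 2 * (m j : ℝ) ^ 2 := by
        unfold msq
        have h1 : ∀ i : Fin k, ((a j i : ℤ) : ℝ) ^ 2 =
            (m j : ℝ) ^ 2 * ((if i = j then 1 else 0) + (if i = j0 then 1 else 0)) := by
          intro i
          simp only [ha, Pi.sub_apply]
          by_cases h1 : i = j
          · have h2 : i ≠ j0 := fun h => hj (h1 ▸ h)
            rw [h1, Pi.single_eq_same, Pi.single_eq_of_ne (h1 ▸ h2), if_pos rfl,
              if_neg (h1 ▸ h2)]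
            push_cast
            ring
          · by_cases h2 : i = j0
            · rw [h2, Pi.single_eq_same, Pi.single_eq_of_ne (h2 ▸ h1), if_pos rfl,
                if_neg (h2 ▸ h1)]
              push_cast
              ring
            · rw [Pi.single_eq_of_ne h1, Pi.single_eq_of_ne h2, if_neg h1, if_neg h2]
              push_cast
              ring
        rw [Finset.sum_congr rfl fun i _ => h1 i, ← Finset.mul_sum, Finset.sum_add_distrib,
          Finset.sum_ite_eq' Finset.univ j, Finset.sum_ite_eq' Finset.univ j0]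
        simp only [Finset.mem_univ, if_true]
        ring
      set q : ℕ := (m j).natAbs ^ 2 with hq
      have hqr : ((q : ℕ) : ℝ) = (m j : ℝ) ^ 2 := by
        rw [hq]
        push_cast
        rw [Nat.cast_natAbs]
        push_cast
        exact sq_abs _
      obtain ⟨c, hc, g⟩ := all_sites mms_all hb0 (by positivity) h
        (show (0 : ℝ) < ε' / (q + 1) by positivity)
      set e : ℝ := 1 / (2 * Real.pi * helicity b) + ε' / (q + 1) with he
      have he0 : 0 ≤ e := by positivity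
      refine ⟨(c * ((A : ℝ) + 1) ^ (-e)) ^ q, by positivity, fun x d hx => ?_⟩
      have hd : (1 : ℝ) ≤ d := by exact_mod_cast hx.1
      have hd0 : (0 : ℝ) < d := by linarith
      have h3 := chargeInf_zmul hb0.le (Pi.single j 1 - Pi.single j0 1 : Fin k → ℤ) x (m j)
      refine le_trans ?_ h3
      rw [chargeInf_pair hb0.le, ← XY.corrInf_eq hb0.le]
      have h4 := hx.2.1 j0 j (Ne.symm hj)
      have h5 := hx.2.2 j0 j
      have hne : x j0 - x j ≠ 0 := by
        intro h0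
        rw [h0] at h4
        have : (1 : ℤ) ≤ d := by exact_mod_cast hx.1
        simp at h4
        omega
      have h6 := g (x j0 - x j) hne
      have hle : ((max |(x j0 - x j).1| |(x j0 - x j).2| : ℤ) : ℝ) ≤ (A + 1) * d := by
        have h7 : ((max |(x j0 - x j).1| |(x j0 - x j).2| : ℤ) : ℝ) ≤ ((A * d : ℤ) : ℝ) :=
          Int.cast_le.2 h5
        push_cast at h7 ⊢
        linarith
      have hpos : (0 : ℝ) < ((max |(x j0 - x j).1| |(x j0 - x j).2| : ℤ) : ℝ) := by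
        have h7 : ((d : ℤ) : ℝ) ≤ ((max |(x j0 - x j).1| |(x j0 - x j).2| : ℤ) : ℝ) :=
          Int.cast_le.2 h4
        rw [Int.cast_natCast] at h7
        linarith
      have h8 : c * ((A : ℝ) + 1) ^ (-e) * (d : ℝ) ^ (-e) ≤ corrInf b (x j0 - x j) := by
        refine le_trans ?_ h6
        rw [mul_assoc, ← Real.mul_rpow (by positivity) hd0.le]
        exact mul_le_mul_of_nonneg_left
          (Real.rpow_le_rpow_of_nonpos hpos hle (by linarith)) hc.le
      have h9 : (c * ((A : ℝ) + 1) ^ (-e)) ^ q * (d : ℝ) ^ (-(η * msq (a j) + ε')) ≤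
          (c * ((A : ℝ) + 1) ^ (-e) * (d : ℝ) ^ (-e)) ^ q := by
        rw [mul_pow (c * ((A : ℝ) + 1) ^ (-e))]
        refine mul_le_mul_of_nonneg_left ?_ (by positivity)
        rw [← Real.rpow_natCast ((d : ℝ) ^ (-e)) q, ← Real.rpow_mul hd0.le]
        apply Real.rpow_le_rpow_of_exponent_le hd
        have h10 : ε' / (q + 1) * q ≤ ε' := by
          rw [div_mul_eq_mul_div, div_le_iff₀ (by positivity)]
          nlinarith
        have h11 : η * msq (a j) = 1 / (2 * Real.pi * helicity b) * q := by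
          rw [hmsq, hη, hqr]
          ring
        rw [h11, he]
        nlinarith
      exact h9.trans (pow_le_pow_left₀ (by positivity) h8 _)
  have key : ∀ S : Finset (Fin k), ∀ ε : ℝ, 0 < ε → ∃ c : ℝ, 0 < c ∧ ∀ x d, P x d →
      c * (d : ℝ) ^ (-(η * msq (∑ j ∈ S, a j) + ε)) ≤ chargeInf b (∑ j ∈ S, a j) x := by
    intro S
    induction S using Finset.induction_on with
    | empty =>
      intro ε' hε'
      refine ⟨1, one_pos, fun x d hx => ?_⟩
      have hd : (1 : ℝ) ≤ d := by exact_mod_cast hx.1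
      rw [Finset.sum_empty, chargeInf_zero hb0.le, one_mul]
      apply Real.rpow_le_one_of_one_le_of_nonpos hd
      have := mul_nonneg hη0.le (msq_nonneg (0 : Fin k → ℤ))
      linarith
    | insert j S hj ih =>
      rw [Finset.sum_insert hj]
      exact multi_step hb (a j) (∑ j ∈ S, a j) hη P hP (hpair j) ih
  have h1 := key Finset.univ
  rw [← hsum] at h1
  exact h1

end Vale.Agent.P159.T1.F
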