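import Vale.Agent.P159.T1.F.Fin
import Vale.Agent.P159.T1.D.H172.Fin
import Vale.Agent.P159.T1.D.H598.AxisR1

/-!
T1 of P159, first version: the exponent `1 / √(8 π Y(b)) ≤ 1 / 4`.
-/

open Filter Topology

namespace Vale.Agent.P159.T1.F

open Vale.Agent.P159 Vale.Agent.P159.H950 Vale.Agent.P159.T1.D

/-- the lower bound on the axis -/
theorem axisR {b : ℝ} (hb : bCrit ≤ b) : AxisB b (1 / √(8 * Real.pi * helicity b)) :=
  H598.axisR1 H857.stmtTop H802.stmtMain H995.stmtCover H995.stmtSep H995.stmtSepM H85.stmtTip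
    stmtPos (H565.up stmtU) H172.low H172.arm H172.mid hb

lemma four_le {Y : ℝ} (hY : 2 / Real.pi ≤ Y) : 1 / √(8 * Real.pi * Y) ≤ 1 / 4 := by
  have hpi := Real.pi_pos
  have h1 : 2 / Real.pi * Real.pi = 2 := by field_simp
  have h2 : (4 : ℝ) ^ 2 ≤ 8 * Real.pi * Y := by nlinarith
  exact one_div_le_one_div_of_le (by norm_num) (Real.le_sqrt_of_sq_le h2)

lemma four_lt {Y : ℝ} (hY : 2 / Real.pi < Y) : 1 / √(8 * Real.pi * Y) < 1 / 4 := by
  have hpi := Real.pi_pos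
  have h1 : 2 / Real.pi * Real.pi = 2 := by field_simp
  have h2 : (4 : ℝ) ^ 2 < 8 * Real.pi * Y := by nlinarith
  exact one_div_lt_one_div_of_lt (by norm_num) (Real.lt_sqrt_of_sq_lt h2)

/-- the first final statement -/
theorem quarter :
    -- at the critical point
    (∀ ε : ℝ, 0 < ε → ∃ c : ℝ, 0 < c ∧ ∀ x : ℤ × ℤ, x ≠ 0 →
      c * ((max |x.1| |x.2| : ℤ) : ℝ) ^ (-(1 / 4 + ε)) ≤ corrInf bCrit x) ∧
    -- at and above the critical point
    (∀ b : ℝ, bCrit ≤ b → ∀ ε : ℝ, 0 < ε → ∃ c : ℝ, 0 < c ∧ ∀ x : ℤ × ℤ, x ≠ 0 →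
      c * ((max |x.1| |x.2| : ℤ) : ℝ) ^ (-(1 / √(8 * Real.pi * helicity b) + ε)) ≤
        corrInf b x) ∧
    -- the exponent
    (∀ b : ℝ, bCrit ≤ b → 1 / √(8 * Real.pi * helicity b) ≤ 1 / 4) ∧
    (∀ b b' : ℝ, bCrit ≤ b → b < b' →
      1 / √(8 * Real.pi * helicity b') < 1 / √(8 * Real.pi * helicity b)) ∧
    -- charges
    (∀ b : ℝ, bCrit ≤ b → ∀ q : ℕ, 1 ≤ q → ∀ ε : ℝ, 0 < ε → ∃ c : ℝ, 0 < c ∧
      ∀ x : ℤ × ℤ, x ≠ 0 →
        c * ((max |x.1| |x.2| : ℤ) : ℝ) ^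
            (-((q : ℝ) ^ 2 * (1 / √(8 * Real.pi * helicity b)) + ε)) ≤
          chargeInf b ![(q : ℤ), -(q : ℤ)] ![0, x]) ∧
    -- off the axis correlations are larger
    (∀ b : ℝ, 0 ≤ b → ∀ x1 x2 : ℕ,
      corrInf b (((x1 + x2 : ℕ) : ℤ), 0) ≤ corrInf b ((x1 : ℤ), (x2 : ℤ))) := by
  have h0 : ∀ b : ℝ, bCrit ≤ b → 0 ≤ 1 / √(8 * Real.pi * helicity b) := fun b _ => by positivity
  have hf := family (κ := fun b => 1 / √(8 * Real.pi * helicity b)) h0 fun b hb => axisR hb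
  refine ⟨fun ε hε => ?_, fun b hb => (hf b hb).1, fun b hb => four_le (hel_ge hb),
    fun b b' hb hbb => ?_, fun b hb => (hf b hb).2, mms_all⟩
  · exact all_sites mms_all H170.bCrit_pos (by norm_num)
      ((axisR le_rfl).mono (four_le (hel_ge le_rfl))) hε
  · have h1 : helicity b < helicity b' := H170.final.2.2.1.2.2.1 (Set.mem_Ici.2 hb)
      (Set.mem_Ici.2 (hb.trans hbb.le)) hbb
    have h2 := hel_pos hb
    have hpi := Real.pi_pos
    refine one_div_lt_one_div_of_lt (Real.sqrt_pos.2 (by positivity)) ?_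
    exact Real.sqrt_lt_sqrt (by positivity) (by nlinarith)

end Vale.Agent.P159.T1.F
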