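import Vale.Agent.P159.T1.F.Multi

/-!
The final statement of the sharp form, from the sharp lower bound on the axis.
-/

open Filter Topology

namespace Vale.Agent.P159.T1.F

open Vale.Agent.P159 Vale.Agent.P159.H950

lemma eta_pos {b : ℝ} (hb : bCrit ≤ b) : 0 < 1 / (2 * Real.pi * helicity b) := by
  have := hel_pos hb
  have := Real.pi_pos
  positivity

/-- the exponent exists for every charge -/
theorem limit_charge (h : ∀ b : ℝ, bCrit ≤ b → AxisB b (1 / (2 * Real.pi * helicity b))) {b : ℝ}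
    (hb : bCrit ≤ b) {q : ℕ} (hq : 1 ≤ q) :
    Tendsto (fun x : ℤ × ℤ => Real.log (chargeInf b ![(q : ℤ), -(q : ℤ)] ![0, x]) /
      Real.log ((max |x.1| |x.2| : ℤ) : ℝ)) cofinite
      (𝓝 (-((q : ℝ) ^ 2 / (2 * Real.pi * helicity b)))) := by
  have e : (q : ℝ) ^ 2 / (2 * Real.pi * helicity b) =
      (q : ℝ) ^ 2 * (1 / (2 * Real.pi * helicity b)) := by ring
  rw [e]
  refine tendsto_log (f := fun x => chargeInf b ![(q : ℤ), -(q : ℤ)] ![0, x]) (fun ε hε => ?_)
    fun ε hε => ?_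
  · exact all_charges mms_all (H170.bCrit_pos.trans_le hb) (eta_pos hb).le (h b hb) hq hε
  · exact charge_up hb hq (by rw [kS]; linarith)

/-- two-sided bounds and the limit for the two-point function -/
theorem limit_two (h : ∀ b : ℝ, bCrit ≤ b → AxisB b (1 / (2 * Real.pi * helicity b))) {b : ℝ}
    (hb : bCrit ≤ b) :
    Tendsto (fun x : ℤ × ℤ => Real.log (corrInf b x) /
      Real.log ((max |x.1| |x.2| : ℤ) : ℝ)) cofinite
      (𝓝 (-(1 / (2 * Real.pi * helicity b)))) := by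
  refine tendsto_log (f := fun x => corrInf b x) (fun ε hε => ?_) fun ε hε => ?_
  · exact all_sites mms_all (H170.bCrit_pos.trans_le hb) (eta_pos hb).le (h b hb) hε
  · refine H873.decay_all (H170.bCrit_pos.trans_le hb) ?_
    have h1 := hel_pos hb
    have hpi := Real.pi_pos
    have h2 : 1 / (2 * Real.pi * helicity b) * (2 * Real.pi * helicity b) = 1 := by
      field_simp
    have h3 : 0 < ε * (2 * Real.pi * helicity b) := by positivity
    linarith

/-- several charges -/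
theorem multi_two (h : ∀ b : ℝ, bCrit ≤ b → AxisB b (1 / (2 * Real.pi * helicity b))) {b : ℝ}
    (hb : bCrit ≤ b) {k : ℕ} (m : Fin k → ℤ) (hm : ∑ j, m j = 0) (A : ℕ) {ε : ℝ} (hε : 0 < ε) :
    ∃ c K : ℝ, 0 < c ∧ 0 < K ∧ ∀ (x : Fin k → ℤ × ℤ) (d : ℕ), 1 ≤ d →
      (∀ i j, i ≠ j → (d : ℤ) ≤ max |(x i - x j).1| |(x i - x j).2| ∧
        max |(x i - x j).1| |(x i - x j).2| ≤ (A * d : ℤ)) →
      c * (d : ℝ) ^ (-((∑ j, (m j : ℝ) ^ 2) / (4 * Real.pi * helicity b) + ε)) ≤
          chargeInf b m x ∧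
        chargeInf b m x ≤
          K * (d : ℝ) ^ (-((∑ j, (m j : ℝ) ^ 2) / (4 * Real.pi * helicity b) - ε)) := by
  have hY := hel_pos hb
  have hpi := Real.pi_pos
  have e : (∑ j, (m j : ℝ) ^ 2) / (4 * Real.pi * helicity b) =
      1 / (2 * Real.pi * helicity b) / 2 * msq m := by
    unfold msq
    field_simp
    ring
  obtain ⟨c, hc, h1⟩ := multi_low hb (h b hb) m hm (A := A) hε
  obtain ⟨K, hK, h2⟩ := multi_up hb m hε
  refine ⟨c, K, hc, hK, fun x d hd hx => ?_⟩
  rw [e]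
  refine ⟨h1 x d hd (fun i j hij => (hx i j hij).1) fun i j => ?_,
    h2 x d hd fun i j hij => (hx i j hij).1⟩
  by_cases hij : i = j
  · rw [hij, sub_self]
    have : (0 : ℤ) ≤ A * d := by positivity
    simpa using this
  · exact (hx i j hij).2

/-- the critical exponent is `1 / 4` if and only if the helicity modulus is `2 / π` -/
theorem quarter_iff (h : ∀ b : ℝ, bCrit ≤ b → AxisB b (1 / (2 * Real.pi * helicity b))) :
    (∀ ε : ℝ, 0 < ε → ∃ K : ℝ, ∀ x : ℤ × ℤ, x ≠ 0 →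
      corrInf bCrit x ≤ K * ((max |x.1| |x.2| : ℤ) : ℝ) ^ (-(1 / 4 - ε))) ↔
      helicity bCrit = 2 / Real.pi := by
  have hpi := Real.pi_pos
  have hY := hel_pos le_rfl
  have hY2 := hel_ge le_rfl
  constructor
  · intro H
    have h1 := limit_two h le_rfl
    have h2 : Tendsto (fun x : ℤ × ℤ => Real.log (corrInf bCrit x) /
        Real.log ((max |x.1| |x.2| : ℤ) : ℝ)) cofinite (𝓝 (-(1 / 4))) := by
      refine tendsto_log (f := fun x => corrInf bCrit x) (fun ε hε => ?_) fun ε hε => H ε hε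
      exact all_sites mms_all H170.bCrit_pos (by norm_num) ((h bCrit le_rfl).mono
        (kS_le (hel_ge le_rfl))) hε
    have h3 := tendsto_nhds_unique h1 h2
    have h4 : 2 * Real.pi * helicity bCrit = 4 := by
      have h5 : 1 / (2 * Real.pi * helicity bCrit) = 1 / 4 := by linarith
      have h6 : 0 < 2 * Real.pi * helicity bCrit := by positivity
      rw [div_eq_div_iff h6.ne' (by norm_num)] at h5
      linarith
    rw [eq_div_iff hpi.ne']
    linarith
  · intro H ε hε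
    refine H873.decay_all H170.bCrit_pos ?_
    rw [H]
    have : 2 * Real.pi * (2 / Real.pi) = 4 := by
      field_simp
      norm_num
    rw [this]
    linarith

/-- **the sharp statement** -/
theorem sharp (h : ∀ b : ℝ, bCrit ≤ b → AxisB b (1 / (2 * Real.pi * helicity b))) :
    -- the exponent of the two-point function exists at and above the critical point
    (∀ b : ℝ, bCrit ≤ b → Tendsto (fun x : ℤ × ℤ => Real.log (corrInf b x) /
      Real.log ((max |x.1| |x.2| : ℤ) : ℝ)) cofinite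
      (𝓝 (-(1 / (2 * Real.pi * helicity b))))) ∧
    -- its values
    (1 / (7 * Real.pi) < 1 / (2 * Real.pi * helicity bCrit) ∧
      1 / (2 * Real.pi * helicity bCrit) ≤ 1 / 4 ∧
      StrictAntiOn (fun b : ℝ => 1 / (2 * Real.pi * helicity b)) (Set.Ici bCrit)) ∧
    -- at the critical point it is `1 / 4` if and only if the helicity modulus is `2 / π`
    (∀ ε : ℝ, 0 < ε → ∃ c : ℝ, 0 < c ∧ ∀ x : ℤ × ℤ, x ≠ 0 →
      c * ((max |x.1| |x.2| : ℤ) : ℝ) ^ (-(1 / 4 + ε)) ≤ corrInf bCrit x) ∧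
    ((∀ ε : ℝ, 0 < ε → ∃ K : ℝ, ∀ x : ℤ × ℤ, x ≠ 0 →
      corrInf bCrit x ≤ K * ((max |x.1| |x.2| : ℤ) : ℝ) ^ (-(1 / 4 - ε))) ↔
      helicity bCrit = 2 / Real.pi) ∧
    -- all charges
    (∀ b : ℝ, bCrit ≤ b → ∀ q : ℕ, 1 ≤ q →
      Tendsto (fun x : ℤ × ℤ => Real.log (chargeInf b ![(q : ℤ), -(q : ℤ)] ![0, x]) /
        Real.log ((max |x.1| |x.2| : ℤ) : ℝ)) cofinite
        (𝓝 (-((q : ℝ) ^ 2 / (2 * Real.pi * helicity b))))) ∧
    -- several charges at comparable distances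
    (∀ b : ℝ, bCrit ≤ b → ∀ (k : ℕ) (m : Fin k → ℤ), ∑ j, m j = 0 → ∀ (A : ℕ) (ε : ℝ), 0 < ε →
      ∃ c K : ℝ, 0 < c ∧ 0 < K ∧ ∀ (x : Fin k → ℤ × ℤ) (d : ℕ), 1 ≤ d →
        (∀ i j, i ≠ j → (d : ℤ) ≤ max |(x i - x j).1| |(x i - x j).2| ∧
          max |(x i - x j).1| |(x i - x j).2| ≤ (A * d : ℤ)) →
        c * (d : ℝ) ^ (-((∑ j, (m j : ℝ) ^ 2) / (4 * Real.pi * helicity b) + ε)) ≤
            chargeInf b m x ∧
          chargeInf b m x ≤
            K * (d : ℝ) ^ (-((∑ j, (m j : ℝ) ^ 2) / (4 * Real.pi * helicity b) - ε))) := by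
  have hpi := Real.pi_pos
  have hY := hel_pos le_rfl
  refine ⟨fun b hb => limit_two h hb, ⟨?_, kS_le (hel_ge le_rfl), ?_⟩, fun ε hε => ?_,
    quarter_iff h, fun b hb q hq => limit_charge h hb hq,
    fun b hb k m hm A ε hε => multi_two h hb m hm A hε⟩
  · apply one_div_lt_one_div_of_lt (by positivity)
    have := H170.hel_bCrit_lt
    nlinarith
  · intro b hb b' hb' hlt
    have h1 : helicity b < helicity b' := H170.final.2.2.1.2.2.1 hb hb' hlt
    have h2 := hel_pos (Set.mem_Ici.1 hb)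
    exact one_div_lt_one_div_of_lt (by positivity) (by nlinarith)
  · exact all_sites mms_all H170.bCrit_pos (by norm_num) ((h bCrit le_rfl).mono
      (kS_le (hel_ge le_rfl))) hε

end Vale.Agent.P159.T1.F
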