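import Vale.Agent.P159.T1.F.Sharp
import Vale.Agent.P159.T1.H565.Coul5
import Vale.Agent.P159.T1.S.H598.Good
import Vale.Agent.P159.T1.S.H172.GoodU
import Vale.Agent.P159.T1.S.H546.Key
import Vale.Agent.P159.T1.S.H546.BeE
import Vale.Agent.P159.T1.S.H226.FxMain
import Vale.Agent.P159.T1.S.H634.ClGlob
import Vale.Agent.P159.T1.S.H376.PhiB
import Vale.Agent.P159.T1.S.H376.OscFin
import Vale.Agent.P159.T1.S.H831.Tn1
import Vale.Agent.P159.T1.S.H112.FreeSq
import Vale.Agent.P159.T1.S.H407.Be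
import Vale.Agent.P159.T1.S.H731.Vu
import Vale.Agent.P159.T1.S.H857.LowP
import Vale.Agent.P159.T1.H565.Upm7
import Vale.Agent.P159.T1.D.H172.Fin

/-!
The sharp exponent at and above the critical point: all rows put together.
-/

open Filter Topology

namespace Vale.Agent.P159.T1.F

open Vale.Agent.P159 Vale.Agent.P159.H950

/-- the product bound, form of the consumer -/
theorem goodS : S.H598.StmtGoodS := by
  intro b V κ ε hb hV hp hκ hε
  obtain ⟨q0, h1⟩ := S.H172.stmtGoodS b V κ ε hb (by linarith) hp hκ hε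
  refine ⟨q0, fun q hq => ?_⟩
  obtain ⟨x, y, s, c0, n1, A0, hc0, h2⟩ := h1 q hq
  refine ⟨x, y, s, c0, n1, A0, hc0, fun c1 hc1 hc => ?_⟩
  obtain ⟨hPar, -, h3⟩ := h2 c1 hc1 hc
  refine ⟨hPar, fun n0 hn0 => ?_⟩
  obtain ⟨c, r0, hc, h4⟩ := h3 n0 hn0
  refine ⟨c, r0, hc, fun A r M hA hr hM hN => ?_⟩
  rw [mul_comm]
  exact h4 A r hA hr M hM hN

/-- the row S.VU -/
theorem vu : S.StmtVu :=
  S.H731.stmtVu (S.H376.stmtPhi S.H634.stmtCL) S.H112.stmtSV S.H130.stmtEn0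

/-- the row S.VB -/
theorem vb : S.StmtVB := S.H731.stmtVB vu S.H546.stmtBeE S.H634.stmtUnb

/-- the row S.KEY -/
theorem key : S.StmtKey :=
  S.H546.stmtKey D.stmtU S.H831.stmtT S.H407.stmtBe S.H546.stmtBeE
    (S.H376.stmtOsc S.H634.stmtCL) S.H634.stmtUnb vb S.H226.stmtFx

/-- the sharp lower bound on the axis -/
theorem axisS {b : ℝ} (hb : bCrit ≤ b) : AxisB b (1 / (2 * Real.pi * helicity b)) :=
  S.H598.axisSharp D.H857.stmtTop (S.H598.l1_of_good goodS key D.H172.low)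
    (S.H857.stmtLowP_of D.H172.low) (H565.stmtUpM D.stmtU) hb

/-- **the sharp statement, without hypotheses** -/
theorem sharpFin :
    -- the exponent of the two-point function exists at and above the critical point
    (∀ b : ℝ, bCrit ≤ b → Tendsto (fun x : ℤ × ℤ => Real.log (corrInf b x) /
      Real.log ((max |x.1| |x.2| : ℤ) : ℝ)) cofinite
      (𝓝 (-(1 / (2 * Real.pi * helicity b))))) ∧
    -- its values
    (1 / (7 * Real.pi) < 1 / (2 * Real.pi * helicity bCrit) ∧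
      1 / (2 * Real.pi * helicity bCrit) ≤ 1 / 4 ∧
      StrictAntiOn (fun b : ℝ => 1 / (2 * Real.pi * helicity b)) (Set.Ici bCrit)) ∧
    -- the lower bound with the power `1 / 4` at the critical point
    (∀ ε : ℝ, 0 < ε → ∃ c : ℝ, 0 < c ∧ ∀ x : ℤ × ℤ, x ≠ 0 →
      c * ((max |x.1| |x.2| : ℤ) : ℝ) ^ (-(1 / 4 + ε)) ≤ corrInf bCrit x) ∧
    -- the power `1 / 4` is the true one if and only if the helicity modulus is `2 / π`
    ((∀ ε : ℝ, 0 < ε → ∃ K : ℝ, ∀ x : ℤ × ℤ, x ≠ 0 →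
      corrInf bCrit x ≤ K * ((max |x.1| |x.2| : ℤ) : ℝ) ^ (-(1 / 4 - ε))) ↔
      helicity bCrit = 2 / Real.pi) ∧
    -- the exponents of all charges
    (∀ b : ℝ, bCrit ≤ b → ∀ q : ℕ, 1 ≤ q →
      Tendsto (fun x : ℤ × ℤ => Real.log (chargeInf b ![(q : ℤ), -(q : ℤ)] ![0, x]) /
        Real.log ((max |x.1| |x.2| : ℤ) : ℝ)) cofinite
        (𝓝 (-((q : ℝ) ^ 2 / (2 * Real.pi * helicity b))))) ∧
    -- the Coulomb gas formula for all neutral correlations at all positions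
    (∀ b : ℝ, bCrit ≤ b → ∀ (k : ℕ) (m : Fin k → ℤ), ∑ j, m j = 0 → ∀ ε : ℝ, 0 < ε →
      ∃ K : ℝ, ∀ (x : Fin k → ℤ × ℤ) (N : ℕ), 1 ≤ N →
        (∀ i j, max |(x i - x j).1| |(x i - x j).2| ≤ (N : ℤ)) →
        0 < chargeInf b m x ∧
          |Real.log (chargeInf b m x) - 1 / (4 * Real.pi * helicity b) *
            ∑ i, ∑ j, (m i * m j : ℝ) *
              Real.log (max 1 ((max |(x i - x j).1| |(x i - x j).2| : ℤ) : ℝ))| ≤
            ε * Real.log N + K) := by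
  have H := sharp fun b hb => axisS hb
  exact ⟨H.1, H.2.1, H.2.2.1, H.2.2.2.1, H.2.2.2.2.1,
    fun b hb k m hm ε hε => H565.coulomb_log hb (axisS hb) m hm hε⟩

end Vale.Agent.P159.T1.F
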